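import Vale.Agent.P279.NG.Defs

/-!
# P279 (Nagata): transfer of independence between fields

* `exists_of_eff`: if fat points impose effective plane curves for all rational configurations then
  for every configuration over every field of characteristic zero.
* `Good.of_indepAt`, `Good.exists_field`: independence of a support for some torus points over a
  field of characteristic zero is the same as for some rational torus points.
-/

set_option linter.all false

namespace Vale.Agent.P279.NG

open Finset MvPolynomial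

section Point

variable {k L : Type*} [Field k] [Field L] [Algebra k L] [Infinite k]

/-- A matrix of polynomials over an infinite field `k` whose value at some point over an extension
`L` is injective has an injective value at a point over `k` with nonzero coordinates. -/
theorem exists_point_injective {σ I J : Type*} [Fintype I] [Fintype J]
    (M : Matrix I J (MvPolynomial σ k)) (p : σ → L)
    (h : ∀ x : J → L, (M.map (aeval p)).mulVec x = 0 → x = 0) :
    ∃ q : σ → k, (∀ i, q i ≠ 0) ∧
      ∀ x : J → L, (M.map (fun P => algebraMap k L (eval q P))).mulVec x = 0 → x = 0 := by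
  classical
  obtain ⟨L0, hL0⟩ := Gen.exists_left_inverse (M.map (aeval p)) h
  set Δ : MvPolynomial σ L :=
    (L0.map (C : L →+* MvPolynomial σ L) * M.map (MvPolynomial.map (algebraMap k L))).det with hΔ
  have hev : ∀ x : σ → L, eval x Δ =
      (L0 * M.map (fun P => eval x (MvPolynomial.map (algebraMap k L) P))).det := by
    intro x
    rw [hΔ, RingHom.map_det, RingHom.mapMatrix_apply, Matrix.map_mul]
    congr 2
    · ext i j
      simp only [Matrix.map_apply, eval_C]
  have hne : Δ ≠ 0 := by
    intro h0
    have h1 := hev p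
    rw [h0, map_zero] at h1
    have h2 : (M.map (fun P => eval p (MvPolynomial.map (algebraMap k L) P))) =
        M.map (aeval p) := by
      ext i j
      simp only [Matrix.map_apply, eval_map]
      rfl
    rw [h2, hL0, Matrix.det_one] at h1
    exact zero_ne_one h1
  have hinf : ∀ _ : σ, (algebraMap k L '' {y : k | y ≠ 0}).Infinite := by
    intro _
    refine Set.Infinite.image (algebraMap k L).injective.injOn ?_
    have h1 : ({0}ᶜ : Set k).Infinite := (Set.finite_singleton (0 : k)).infinite_compl
    exact h1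
  have hex : ∃ x ∈ Set.pi Set.univ (fun _ : σ => algebraMap k L '' {y : k | y ≠ 0}),
      eval x Δ ≠ 0 := by
    by_contra hno
    push Not at hno
    apply hne
    apply MvPolynomial.funext_set (fun _ : σ => algebraMap k L '' {y : k | y ≠ 0}) hinf
    intro x hx
    rw [hno x hx, map_zero]
  obtain ⟨x, hx, hxΔ⟩ := hex
  have hx' : ∀ i, ∃ y : k, y ≠ 0 ∧ algebraMap k L y = x i := fun i => hx i (Set.mem_univ i)
  choose q hq0 hq using hx'
  refine ⟨q, hq0, fun y hy => ?_⟩
  rw [hev] at hxΔ
  have h2 : (M.map (fun P => eval x (MvPolynomial.map (algebraMap k L) P))) =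
      M.map (fun P => algebraMap k L (eval q P)) := by
    ext i j
    simp only [Matrix.map_apply, eval_map]
    have e : x = fun i => algebraMap k L (q i) := by
      funext i
      exact (hq i).symm
    rw [e]
    have e3 := aeval_algebraMap_apply L q (M i j)
    exact e3
  rw [h2] at hxΔ
  by_contra hne'
  exact hxΔ (Matrix.exists_mulVec_eq_zero_iff.1 ⟨y, hne', by
    rw [← Matrix.mulVec_mulVec, hy, Matrix.mulVec_zero]⟩)

end Point

section Rows

variable {ι : Type*} (m : ι → ℕ)

/-- the index set of the conditions -/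
def RowIx : Type _ := {x : (i : ι) × (Fin (m i) × Fin (m i)) // (x.2.1 : ℕ) + x.2.2 < m x.1}

noncomputable instance [Fintype ι] : Fintype (RowIx m) := by
  classical
  unfold RowIx
  infer_instance

/-- the matrix of the conditions -/
noncomputable def condMat (K : Type*) [CommRing K] (S : Finset (ℕ × ℕ)) (q : ι → Fin 2 → K) :
    Matrix (RowIx m) S K :=
  fun x s => (s.1.1 : K) ^ (x.1.2.1 : ℕ) * (s.1.2 : K) ^ (x.1.2.2 : ℕ) *
    (q x.1.1 0 ^ s.1.1 * q x.1.1 1 ^ s.1.2)

variable {m}

theorem condMat_map {R K : Type*} [CommRing R] [CommRing K] (φ : R →+* K) (S : Finset (ℕ × ℕ))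
    (q : ι → Fin 2 → R) : (condMat m R S q).map φ = condMat m K S (fun i j => φ (q i j)) := by
  ext x s
  simp [condMat]

theorem van_iff_mulVec {K : Type*} [Field K] {S : Finset (ℕ × ℕ)} (q : ι → Fin 2 → K)
    (c : ℕ × ℕ → K) :
    (∀ i, Van S c (q i 0) (q i 1) (m i)) ↔ (condMat m K S q).mulVec (fun s => c s.1) = 0 := by
  have hmv : ∀ x : RowIx m, (condMat m K S q).mulVec (fun s => c s.1) x =
        ∑ s ∈ S, c s * ((s.1 : K) ^ (x.1.2.1 : ℕ) * (s.2 : K) ^ (x.1.2.2 : ℕ) *
          (q x.1.1 0 ^ s.1 * q x.1.1 1 ^ s.2)) := by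
    intro x
    rw [← Finset.sum_coe_sort S (fun s => c s * ((s.1 : K) ^ (x.1.2.1 : ℕ) *
      (s.2 : K) ^ (x.1.2.2 : ℕ) * (q x.1.1 0 ^ s.1 * q x.1.1 1 ^ s.2)))]
    simp only [Matrix.mulVec, dotProduct, condMat]
    refine Finset.sum_congr rfl fun s _ => ?_
    ring
  constructor
  · intro h
    funext x
    rw [hmv, h x.1.1 _ _ x.2]
    rfl
  · intro h i a b hab
    have h0 := hmv ⟨⟨i, ⟨⟨a, by omega⟩, ⟨b, by omega⟩⟩⟩, hab⟩
    rw [h] at h0
    exact h0.symm

theorem indepAt_iff {K : Type*} [Field K] {S : Finset (ℕ × ℕ)} {q : ι → Fin 2 → K} :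
    IndepAt K S m q ↔ (∀ i k, q i k ≠ 0) ∧
      ∀ x : S → K, (condMat m K S q).mulVec x = 0 → x = 0 := by
  classical
  unfold IndepAt
  refine and_congr_right fun _ => ?_
  constructor
  · intro h x hx
    have h1 := h (fun s => if hs : s ∈ S then x ⟨s, hs⟩ else 0) (by
      rw [van_iff_mulVec]
      rw [← hx]
      congr 1
      funext s
      simp)
    funext s
    have h2 := h1 s.1 s.2
    simpa using h2
  · intro h f hf s hs
    exact congrFun (h _ ((van_iff_mulVec q f).1 hf)) ⟨s, hs⟩

end Rows

/-- (TR) Independence at torus points of an extension field descends to an infinite field. -/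
theorem IndepAt.descend {k L : Type*} [Field k] [Field L] [Algebra k L] [Infinite k] {ι : Type*}
    [Finite ι] {S : Finset (ℕ × ℕ)} {m : ι → ℕ} {p : ι → Fin 2 → L} (h : IndepAt L S m p) :
    ∃ q : ι → Fin 2 → k, IndepAt k S m q := by
  classical
  have := Fintype.ofFinite ι
  rw [indepAt_iff] at h
  obtain ⟨q, hq0, hq⟩ := exists_point_injective (k := k) (L := L)
    (condMat m (MvPolynomial (ι × Fin 2) k) S (fun i j => X (i, j))) (fun x => p x.1 x.2) (by
      have e := condMat_map (m := m) ((aeval (fun x : ι × Fin 2 => p x.1 x.2) :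
        MvPolynomial (ι × Fin 2) k →ₐ[k] L) : MvPolynomial (ι × Fin 2) k →+* L) S
        (fun i j => X (i, j))
      simp only [RingHom.coe_coe, aeval_X] at e
      intro x hx
      refine h.2 x ?_
      rw [← hx]
      congr 1
      exact e.symm)
  refine ⟨fun i j => q (i, j), ?_⟩
  rw [indepAt_iff]
  refine ⟨fun i j => hq0 _, fun x hx => ?_⟩
  have h1 := hq (fun s => algebraMap k L (x s)) (by
    have e : ((condMat m (MvPolynomial (ι × Fin 2) k) S (fun i j => X (i, j))).map
        (fun P => algebraMap k L (eval q P))) =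
        (condMat m k S (fun i j => q (i, j))).map (algebraMap k L) := by
      ext a b
      simp [condMat]
    rw [e]
    funext y
    have e6 := RingHom.map_mulVec (algebraMap k L) (condMat m k S (fun i j => q (i, j))) x y
    rw [hx] at e6
    simp only [Pi.zero_apply, map_zero] at e6
    exact e6.symm)
  funext s
  have h2 := congrFun h1 s
  simpa using h2

/-- (TR) -/
theorem Good.of_indepAt {L : Type*} [Field L] [CharZero L] {ι : Type*} [Finite ι]
    {S : Finset (ℕ × ℕ)} {m : ι → ℕ} {q : ι → Fin 2 → L} (h : IndepAt L S m q) : Good S m :=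
  h.descend

/-- Independence at rational points gives independence over every field of characteristic zero. -/
theorem IndepAt.extend {L : Type*} [Field L] [CharZero L] {ι : Type*} [Finite ι]
    {S : Finset (ℕ × ℕ)} {m : ι → ℕ} {q : ι → Fin 2 → ℚ} (h : IndepAt ℚ S m q) :
    IndepAt L S m (fun i j => algebraMap ℚ L (q i j)) := by
  classical
  have := Fintype.ofFinite ι
  rw [indepAt_iff] at h ⊢
  refine ⟨fun i j => by simpa using h.1 i j, ?_⟩
  obtain ⟨L0, hL0⟩ := Gen.exists_left_inverse _ h.2
  intro x hx
  have h1 : (L0.map (algebraMap ℚ L)) * condMat m L S (fun i j => algebraMap ℚ L (q i j)) = 1 := by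
    rw [← condMat_map, ← Matrix.map_mul, hL0]
    ext i j
    rw [Matrix.map_apply, Matrix.one_apply, Matrix.one_apply]
    split_ifs <;> simp
  have h2 : x = ((L0.map (algebraMap ℚ L)) *
      condMat m L S (fun i j => algebraMap ℚ L (q i j))).mulVec x := by
    rw [h1, Matrix.one_mulVec]
  rw [h2, ← Matrix.mulVec_mulVec, hx, Matrix.mulVec_zero]

theorem Good.exists_field {ι : Type*} [Finite ι] {S : Finset (ℕ × ℕ)} {m : ι → ℕ} (h : Good S m)
    (L : Type*) [Field L] [CharZero L] : ∃ q : ι → Fin 2 → L, IndepAt L S m q := by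
  obtain ⟨q, hq⟩ := h
  exact ⟨_, hq.extend⟩

/-! ### Plane curves: from `Eff` to every configuration over every field of characteristic zero -/

/-- (TR2) -/
theorem exists_of_eff {ι : Type*} [Finite ι] {b c : ℕ} {m : ι → ℕ} (h : Eff b c m)
    (L : Type*) [Field L] [CharZero L] (q : ι → Fin 2 → L) :
    ∃ P : MvPolynomial (Fin 2) L, P ≠ 0 ∧ InV b c P ∧ ∀ i, MultGE (q i) (m i) P := by
  classical
  have := Fintype.ofFinite ι
  rw [Gen.exists_iff]
  by_contra hcon
  push Not at hcon
  set U : ι → Fin 2 → MvPolynomial (ι × Fin 2) ℚ := fun i k => X (i, k) with hU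
  obtain ⟨q', _, hq'⟩ := exists_point_injective (k := ℚ) (L := L) (Gen.mat b c m U)
    (fun x => q x.1 x.2) (by
      intro y hy
      by_contra h0
      refine hcon y h0 ?_
      rw [← hy]
      congr 1
      have e := Gen.mat_map ((aeval (fun x : ι × Fin 2 => q x.1 x.2) :
        MvPolynomial (ι × Fin 2) ℚ →ₐ[ℚ] L) : MvPolynomial (ι × Fin 2) ℚ →+* L) b c m U
      have e2 : (fun i k => ((aeval (fun x : ι × Fin 2 => q x.1 x.2) :
        MvPolynomial (ι × Fin 2) ℚ →ₐ[ℚ] L) : MvPolynomial (ι × Fin 2) ℚ →+* L) (U i k)) = q := by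
        funext i k
        simp [hU]
      rw [e2] at e
      exact e.symm)
  obtain ⟨x, hx0, hx⟩ := (Gen.exists_iff b c m (fun i k => q' (i, k))).1 (h fun i k => q' (i, k))
  apply hx0
  have h1 := hq' (fun j => algebraMap ℚ L (x j)) (by
    have e := Gen.mat_map ((algebraMap ℚ L).comp (eval q')) b c m U
    have e2 : (fun i k => ((algebraMap ℚ L).comp (eval q')) (U i k)) =
        fun i k => algebraMap ℚ L (q' (i, k)) := by
      funext i k
      simp [hU]
    rw [e2] at e
    have e3 := Gen.mat_map (algebraMap ℚ L) b c m (fun i k => q' (i, k))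
    have e4 : ((Gen.mat b c m U).map (fun P => algebraMap ℚ L (eval q' P))) =
        (Gen.mat b c m (fun i k => q' (i, k))).map (algebraMap ℚ L) := by
      rw [e3, ← e]
      rfl
    rw [e4]
    have e5 := RingHom.map_mulVec (algebraMap ℚ L) (Gen.mat b c m (fun i k => q' (i, k))) x
    funext y
    have e6 := e5 y
    rw [hx] at e6
    simp only [Pi.zero_apply, map_zero] at e6
    exact e6.symm)
  funext j
  have h2 := congrFun h1 j
  simpa using h2

end Vale.Agent.P279.NG
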